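import Vale.Agent.P372.H897.SF
import Mathlib.Data.ZMod.Basic
import Mathlib.Analysis.Real.Sqrt

open Matrix Kronecker
open scoped ComplexOrder

namespace Vale.Agent.P372.H897

abbrev V (m : ℕ) := Fin m → ZMod 2

def sg (z : ZMod 2) : ℝ := if z = 0 then 1 else -1

noncomputable def pw (z : ZMod 2) : ℝ := if z = 0 then 1 else (√3)⁻¹

/-- Real Pauli matrices. -/
def pl {m : ℕ} (g : V m × V m) : Matrix (V m) (V m) ℂ :=
  fun u v => if u = v + g.1 then (sg (g.2 ⬝ᵥ v) : ℂ) else 0

def wc {m : ℕ} (g : V m × V m) (j : Fin m) : ZMod 2 := g.2 j + ∑ k ∈ Finset.Ioi j, g.1 k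

noncomputable def mu {m : ℕ} (g : V m × V m) : ℝ :=
  pw (∑ j, g.1 j) * ∏ j, pw (g.1 j + wc g j) * pw (wc g j)

noncomputable def tk (m : ℕ) : Ker (V m) :=
  fun p q i j => ((2 : ℂ) ^ m)⁻¹ * ∑ g : V m × V m, (mu g : ℂ) * pl g p q * pl g i j

/-! ### Signs -/

lemma z2 (z : ZMod 2) : z = 0 ∨ z = 1 := by revert z; decide

lemma sg_add (z w : ZMod 2) : sg (z + w) = sg z * sg w := by
  rcases z2 z with rfl | rfl <;> rcases z2 w with rfl | rfl <;>
    simp [sg, show (1 : ZMod 2) + 1 = 0 from by decide]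

lemma sg_mul_self (z : ZMod 2) : sg z * sg z = 1 := by
  rcases z2 z with rfl | rfl <;> simp [sg]

lemma sg_zero : sg 0 = 1 := by simp [sg]

lemma sg_sum {ι : Type} (s : Finset ι) (f : ι → ZMod 2) : sg (∑ i ∈ s, f i) = ∏ i ∈ s, sg (f i) := by
  classical
  induction s using Finset.induction_on with
  | empty => simp [sg]
  | insert a s ha ih => rw [Finset.sum_insert ha, Finset.prod_insert ha, sg_add, ih]

lemma add_self_V {m : ℕ} (v : V m) : v + v = 0 := by
  funext i
  exact CharTwo.add_self_eq_zero (v i)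

lemma add_self_G {m : ℕ} (g : V m × V m) : g + g = 0 := by
  ext1
  · exact add_self_V g.1
  · exact add_self_V g.2

lemma sum_sg {m : ℕ} (u : V m) : ∑ v : V m, (sg (v ⬝ᵥ u) : ℂ) = if u = 0 then (2 : ℂ) ^ m else 0 := by
  split_ifs with h
  · subst h; simp [sg_zero]
  · obtain ⟨i, hi⟩ : ∃ i, u i ≠ 0 := by
      by_contra hc; push Not at hc; exact h (funext hc)
    have hi1 : u i = 1 := by rcases z2 (u i) with h0 | h0; exact (hi h0).elim; exact h0
    have key : ∑ v : V m, (sg (v ⬝ᵥ u) : ℂ) = - ∑ v : V m, (sg (v ⬝ᵥ u) : ℂ) := by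
      rw [← Finset.sum_neg_distrib]
      rw [← Equiv.sum_comp (Equiv.addRight (Pi.single i (1 : ZMod 2)))
        (fun v : V m => (sg (v ⬝ᵥ u) : ℂ))]
      refine Finset.sum_congr rfl fun v _ => ?_
      simp only [Equiv.coe_addRight, add_dotProduct, single_dotProduct, one_mul, hi1, sg_add]
      simp [sg]
    have h2 : (2 : ℂ) * ∑ v : V m, (sg (v ⬝ᵥ u) : ℂ) = 0 := by
      linear_combination key
    simpa using h2

/-! ### Pauli matrices -/

variable {m : ℕ}

lemma pl_mul (g h : V m × V m) : pl g * pl h = (sg (g.2 ⬝ᵥ h.1) : ℂ) • pl (g + h) := by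
  ext u v
  rw [Matrix.mul_apply, Finset.sum_eq_single (v + h.1)]
  · simp only [pl, if_true, Matrix.smul_apply, smul_eq_mul, Prod.fst_add, Prod.snd_add]
    have e : (u = v + h.1 + g.1) ↔ (u = v + (g.1 + h.1)) := by
      rw [add_comm g.1 h.1, add_assoc]
    simp only [e]
    split_ifs
    · rw [dotProduct_add, add_dotProduct, sg_add, sg_add]
      push_cast; ring
    · simp
  · intro b _ hb
    simp [pl, hb]
  · simp

lemma pl_zero : pl (0 : V m × V m) = 1 := by
  ext u v
  simp [pl, Matrix.one_apply, sg_zero]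

lemma pl_transpose (g : V m × V m) : (pl g)ᵀ = (sg (g.1 ⬝ᵥ g.2) : ℂ) • pl g := by
  ext u v
  simp only [Matrix.transpose_apply, pl, Matrix.smul_apply, smul_eq_mul]
  have e : (v = u + g.1) ↔ (u = v + g.1) := by
    constructor
    · rintro rfl; rw [add_assoc, add_self_V, add_zero]
    · rintro rfl; rw [add_assoc, add_self_V, add_zero]
  simp only [e]
  split_ifs with h
  · subst h
    rw [dotProduct_add, sg_add, dotProduct_comm g.1 g.2]
    push_cast; ring
  · simp

lemma pl_tm (g h : V m × V m) : (pl g)ᵀ * pl h = (sg (g.1 ⬝ᵥ g.2 + g.2 ⬝ᵥ h.1) : ℂ) • pl (g + h) := by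
  rw [pl_transpose, Matrix.smul_mul, pl_mul, smul_smul, sg_add]
  push_cast; rfl

lemma pl_star (g : V m × V m) (u v : V m) : star (pl g u v) = pl g u v := by
  unfold pl
  split_ifs <;> simp

/-- Completeness. -/
lemma complete (p q r k : V m) :
    ∑ g : V m × V m, pl g p q * pl g r k = if p = r ∧ q = k then (2 : ℂ) ^ m else 0 := by
  rw [Fintype.sum_prod_type]
  have hqk : q + k = 0 ↔ q = k := by
    constructor
    · intro h
      have := congrArg (· + k) h
      simpa [add_assoc, add_self_V] using this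
    · rintro rfl; exact add_self_V q
  have h1 : ∀ x : V m, ∑ y : V m, pl (x, y) p q * pl (x, y) r k =
      if p = q + x ∧ r = k + x then (if q = k then (2 : ℂ) ^ m else 0) else 0 := by
    intro x
    by_cases hp : p = q + x
    · by_cases hr : r = k + x
      · have e : ∀ y : V m, pl (x, y) p q * pl (x, y) r k = (sg (y ⬝ᵥ (q + k)) : ℂ) := by
          intro y
          have e1 : pl (x, y) p q = (sg (y ⬝ᵥ q) : ℂ) := if_pos hp
          have e2 : pl (x, y) r k = (sg (y ⬝ᵥ k) : ℂ) := if_pos hr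
          rw [e1, e2, dotProduct_add, sg_add]
          push_cast; rfl
        rw [if_pos ⟨hp, hr⟩, Finset.sum_congr rfl fun y _ => e y, sum_sg]
        simp only [hqk]
      · have e2 : ∀ y : V m, pl (x, y) r k = 0 := fun y => if_neg hr
        rw [if_neg (fun h => hr h.2)]
        simp [e2]
    · have e2 : ∀ y : V m, pl (x, y) p q = 0 := fun y => if_neg hp
      rw [if_neg (fun h => hp h.1)]
      simp [e2]
  simp only [h1]
  by_cases h : p = r ∧ q = k
  · obtain ⟨rfl, rfl⟩ := h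
    rw [Finset.sum_eq_single (q + p)]
    · simp [← add_assoc, add_self_V]
    · intro b _ hb
      rw [if_neg]
      rintro ⟨h1, -⟩
      exact hb (by rw [h1, ← add_assoc, add_self_V, zero_add])
    · simp
  · rw [if_neg h]
    refine Finset.sum_eq_zero fun x _ => ?_
    by_cases hx : p = q + x ∧ r = k + x
    · by_cases hq : q = k
      · exact (h ⟨by rw [hx.1, hx.2, hq], hq⟩).elim
      · simp [hq]
    · simp [hx]

/-! ### Dominated kernels -/

/-- `±B ≤ A` as kernels. -/
def Dom {G : Type} (A B : G → G → ℝ) : Prop :=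
  (Matrix.of fun g h => ((A g h - B g h : ℝ) : ℂ)).PosSemidef ∧
    (Matrix.of fun g h => ((A g h + B g h : ℝ) : ℂ)).PosSemidef

lemma Dom.mul {G : Type} [Fintype G] [DecidableEq G] {A B C D : G → G → ℝ} (h : Dom A B)
    (h' : Dom C D) : Dom (fun g k => A g k * C g k) (fun g k => B g k * D g k) := by
  have e1 : (Matrix.of fun g k => ((A g k : ℝ) : ℂ)) - (Matrix.of fun g k => ((B g k : ℝ) : ℂ)) =
      Matrix.of fun g k => ((A g k - B g k : ℝ) : ℂ) := by ext; simp
  have e2 : (Matrix.of fun g k => ((A g k : ℝ) : ℂ)) + (Matrix.of fun g k => ((B g k : ℝ) : ℂ)) =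
      Matrix.of fun g k => ((A g k + B g k : ℝ) : ℂ) := by ext; simp
  have e3 : (Matrix.of fun g k => ((C g k : ℝ) : ℂ)) - (Matrix.of fun g k => ((D g k : ℝ) : ℂ)) =
      Matrix.of fun g k => ((C g k - D g k : ℝ) : ℂ) := by ext; simp
  have e4 : (Matrix.of fun g k => ((C g k : ℝ) : ℂ)) + (Matrix.of fun g k => ((D g k : ℝ) : ℂ)) =
      Matrix.of fun g k => ((C g k + D g k : ℝ) : ℂ) := by ext; simp
  obtain ⟨p, q⟩ := trick (A := Matrix.of fun g k => ((A g k : ℝ) : ℂ))
    (B := Matrix.of fun g k => ((B g k : ℝ) : ℂ)) (C := Matrix.of fun g k => ((C g k : ℝ) : ℂ))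
    (D := Matrix.of fun g k => ((D g k : ℝ) : ℂ))
    (by rw [e1]; exact h.1) (by rw [e2]; exact h.2) (by rw [e3]; exact h'.1) (by rw [e4]; exact h'.2)
  constructor
  · convert p.submatrix (fun g => (g, g)) using 1
    ext g k; simp
  · convert q.submatrix (fun g => (g, g)) using 1
    ext g k; simp

lemma Dom_one {G : Type} [Fintype G] : Dom (fun _ _ : G => (1 : ℝ)) (fun _ _ => 1) := by
  constructor
  · convert Matrix.PosSemidef.zero using 1
    ext; simp
  · have := Matrix.posSemidef_vecMulVec_self_star (fun _ : G => (1 : ℂ))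
    convert (this.add this) using 1
    ext; simp [Matrix.vecMulVec]

lemma Dom.prod {G ι : Type} [Fintype G] [DecidableEq G] (s : Finset ι) {A B : ι → G → G → ℝ}
    (h : ∀ i ∈ s, Dom (A i) (B i)) :
    Dom (fun g k => ∏ i ∈ s, A i g k) (fun g k => ∏ i ∈ s, B i g k) := by
  classical
  induction s using Finset.induction_on with
  | empty => simpa using Dom_one
  | insert a s ha ih =>
    have := (h a (Finset.mem_insert_self a s)).mul (ih fun i hi => h i (Finset.mem_insert_of_mem hi))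
    simpa [Finset.prod_insert ha] using this

lemma Dom_char {G : Type} [Fintype G] (χ : G → ZMod 2) :
    Dom (fun g h => pw (χ g + χ h)) (fun g h => pw (χ g) * pw (χ h) * sg (χ g * χ h)) := by
  have h3 : (√3 : ℝ)⁻¹ * (√3)⁻¹ = 1 / 3 := by
    rw [← mul_inv, Real.mul_self_sqrt (by norm_num)]; norm_num
  have h11 : (1 : ZMod 2) + 1 = 0 := by decide
  constructor
  · have := (Matrix.posSemidef_vecMulVec_self_star (fun g : G => (if χ g = 0 then 0 else 1 : ℂ))).smul
      (show (0 : ℝ) ≤ 4 / 3 by norm_num)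
    convert this using 1
    ext g h
    have e : pw (χ g + χ h) - pw (χ g) * pw (χ h) * sg (χ g * χ h) =
        if χ g = 0 then 0 else if χ h = 0 then 0 else 4 / 3 := by
      rcases z2 (χ g) with hg | hg <;> rcases z2 (χ h) with hh | hh <;>
        simp [pw, sg, hg, hh, h11]
      linarith
    simp only [Matrix.of_apply, e, Matrix.smul_apply, Matrix.vecMulVec_apply, Pi.star_apply]
    rcases z2 (χ g) with hg | hg <;> rcases z2 (χ h) with hh | hh <;>
      simp [hg, hh]
  · have := (Matrix.posSemidef_vecMulVec_self_star (fun g : G => (pw (χ g) : ℂ))).smul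
      (show (0 : ℝ) ≤ 2 by norm_num)
    convert this using 1
    ext g h
    have e : pw (χ g + χ h) + pw (χ g) * pw (χ h) * sg (χ g * χ h) = 2 * (pw (χ g) * pw (χ h)) := by
      rcases z2 (χ g) with hg | hg <;> rcases z2 (χ h) with hh | hh <;>
        simp [pw, sg, hg, hh, h11]
      all_goals linarith
    simp only [Matrix.of_apply, e, Matrix.smul_apply, Matrix.vecMulVec_apply, Pi.star_apply]
    simp

/-! ### The characters -/

/-- commutation sign -/
def cs (g h : V m × V m) : ZMod 2 := g.2 ⬝ᵥ h.1 + h.2 ⬝ᵥ g.1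

lemma sum_Ioi_swap (f : Fin m → Fin m → ZMod 2) :
    ∑ j, ∑ k ∈ Finset.Ioi j, f j k = ∑ k, ∑ j ∈ Finset.Iio k, f j k := by
  rw [Finset.sum_sigma', Finset.sum_sigma']
  refine Finset.sum_bij' (fun x _ => ⟨x.2, x.1⟩) (fun x _ => ⟨x.2, x.1⟩) ?_ ?_ ?_ ?_ ?_ <;>
    simp

lemma sum_mul_sum_split (u U : V m) :
    (∑ j, u j) * (∑ j, U j) = ∑ j, u j * U j + ∑ j, (u j * ∑ k ∈ Finset.Ioi j, U k +
      U j * ∑ k ∈ Finset.Ioi j, u k) := by
  rw [Finset.sum_mul_sum]
  have h1 : ∀ j : Fin m, ∑ k, u j * U k = u j * U j + u j * ∑ k ∈ Finset.Ioi j, U k +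
      ∑ k ∈ Finset.Iio j, u j * U k := by
    intro j
    rw [Finset.mul_sum]
    have h2 : (Finset.univ : Finset (Fin m)) = insert j (Finset.Ioi j ∪ Finset.Iio j) := by
      ext k
      simp only [Finset.mem_univ, Finset.mem_insert, Finset.mem_union, Finset.mem_Ioi,
        Finset.mem_Iio, true_iff]
      rcases lt_trichotomy j k with h | h | h
      · exact Or.inr (Or.inl h)
      · exact Or.inl h.symm
      · exact Or.inr (Or.inr h)
    rw [h2, Finset.sum_insert, Finset.sum_union]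
    · ring
    · rw [Finset.disjoint_left]
      intro k hk hk'
      simp only [Finset.mem_Ioi, Finset.mem_Iio] at hk hk'
      exact absurd hk (not_lt.mpr hk'.le)
    · simp
  simp only [h1, Finset.sum_add_distrib]
  have h3 : ∑ j, U j * ∑ k ∈ Finset.Ioi j, u k = ∑ j, ∑ k ∈ Finset.Iio j, u j * U k := by
    simp only [Finset.mul_sum]
    rw [sum_Ioi_swap (fun j k => U j * u k)]
    refine Finset.sum_congr rfl fun k _ => Finset.sum_congr rfl fun j _ => ?_
    ring
  rw [h3]
  ring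

lemma char_sum (g h : V m × V m) :
    (∑ j, g.1 j) * (∑ j, h.1 j) + ∑ j, ((g.1 j + wc g j) * (h.1 j + wc h j) + wc g j * wc h j) =
      cs g h := by
  rw [sum_mul_sum_split]
  have h2 : ∀ x : ZMod 2, x + x = 0 := fun x => CharTwo.add_self_eq_zero x
  simp only [wc, cs, dotProduct, ← Finset.sum_add_distrib]
  refine Finset.sum_congr rfl fun j _ => ?_
  have := h2 (g.1 j * h.1 j)
  have a1 := h2 (g.1 j * ∑ k ∈ Finset.Ioi j, h.1 k)
  have a2 := h2 (h.1 j * ∑ k ∈ Finset.Ioi j, g.1 k)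
  have a3 := h2 ((g.2 j + ∑ k ∈ Finset.Ioi j, g.1 k) * (h.2 j + ∑ k ∈ Finset.Ioi j, h.1 k))
  linear_combination this + a1 + a2 + a3

lemma wc_add (g h : V m × V m) (j : Fin m) : wc (g + h) j = wc g j + wc h j := by
  simp only [wc, Prod.snd_add, Prod.fst_add, Pi.add_apply, Finset.sum_add_distrib]
  ring

/-- The two kernels of the strong flip on the labels. -/
theorem Dom_mu : Dom (fun g h : V m × V m => mu (g + h))
    (fun g h => mu g * mu h * sg (cs g h)) := by
  have h1 := (Dom_char (fun g : V m × V m => ∑ j, g.1 j)).mul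
    (Dom.prod Finset.univ (fun j (_ : j ∈ (Finset.univ : Finset (Fin m))) =>
      (Dom_char (fun g : V m × V m => g.1 j + wc g j)).mul
        (Dom_char (fun g : V m × V m => wc g j))))
  convert h1 using 1
  · funext g h
    simp only [mu]
    congr 1
    · congr 1
      simp [Finset.sum_add_distrib]
    · refine Finset.prod_congr rfl fun j _ => ?_
      rw [wc_add]
      congr 2
      simp only [Prod.fst_add, Pi.add_apply]
      ring
  · funext g h
    rw [← char_sum, sg_add, sg_sum]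
    simp only [mu, sg_add]
    simp only [Finset.prod_mul_distrib]
    ring

/-! ### Strong flip for `tk m` -/

/-- Matrix of a kernel on labels times `x_gᴴ x_h`. -/
def DD (k : V m × V m → V m × V m → ℝ) :
    Matrix ((V m × V m) × V m) ((V m × V m) × V m) ℂ :=
  fun x y => (k x.1 y.1 : ℂ) * ((pl x.1)ᵀ * pl y.1) x.2 y.2

lemma DD_psd {k : V m × V m → V m × V m → ℝ}
    (h : (Matrix.of fun g h => ((k g h : ℝ) : ℂ)).PosSemidef) : (DD k).PosSemidef := by
  let X : Matrix (V m) ((V m × V m) × V m) ℂ := Matrix.of fun i x => pl x.1 i x.2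
  have h1 := (h.submatrix (fun x : (V m × V m) × V m => x.1)).hadamard
    (Matrix.posSemidef_conjTranspose_mul_self X)
  have e : DD k = ((Matrix.of fun g h => ((k g h : ℝ) : ℂ)).submatrix
      (fun x : (V m × V m) × V m => x.1) (fun x : (V m × V m) × V m => x.1)).hadamard (Xᴴ * X) := by
    ext x y
    simp only [DD, Matrix.hadamard_apply, Matrix.submatrix_apply, Matrix.of_apply]
    congr 1
    simp only [Matrix.mul_apply, Matrix.conjTranspose_apply, X, Matrix.of_apply,
      Matrix.transpose_apply, pl_star]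
  rw [e]
  exact h1

/-- Change of basis from matrix units to Pauli matrices. -/
noncomputable def CC (m : ℕ) : Matrix ((V m × V m) × V m) ((V m × V m) × V m) ℂ :=
  fun x w => if x.2 = w.2 then ((2 : ℂ) ^ m)⁻¹ * pl x.1 w.1.1 w.1.2 else 0

lemma CC_form (k : V m × V m → V m × V m → ℝ) (p q i r s j : V m) :
    ((CC m)ᴴ * DD k * CC m) ((p, q), i) ((r, s), j) =
      ((2 : ℂ) ^ m)⁻¹ * ((2 : ℂ) ^ m)⁻¹ * ∑ g : V m × V m, ∑ h : V m × V m,
        pl g p q * pl h r s * ((k g h : ℂ) * ((pl g)ᵀ * pl h) i j) := by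
  have hs : star (((2 : ℂ) ^ m)⁻¹) = ((2 : ℂ) ^ m)⁻¹ := by simp
  have h1 : ∀ v, ((CC m)ᴴ * DD k) ((p, q), i) v =
      ∑ g : V m × V m, ((2 : ℂ) ^ m)⁻¹ * pl g p q * DD k (g, i) v := by
    intro v
    rw [Matrix.mul_apply, Fintype.sum_prod_type]
    refine Finset.sum_congr rfl fun g _ => ?_
    rw [Finset.sum_eq_single i]
    · simp [CC, Matrix.conjTranspose_apply, pl_star]
    · intro b _ hb; simp [CC, Matrix.conjTranspose_apply, hb]
    · simp
  rw [Matrix.mul_apply, Fintype.sum_prod_type]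
  have h2 : ∀ h : V m × V m, ∑ y, ((CC m)ᴴ * DD k) ((p, q), i) (h, y) * CC m (h, y) ((r, s), j) =
      ∑ g : V m × V m, ((2 : ℂ) ^ m)⁻¹ * ((2 : ℂ) ^ m)⁻¹ *
        (pl g p q * pl h r s * ((k g h : ℂ) * ((pl g)ᵀ * pl h) i j)) := by
    intro h
    rw [Finset.sum_eq_single j]
    · rw [h1, Finset.sum_mul]
      refine Finset.sum_congr rfl fun g _ => ?_
      simp only [CC, DD, if_true]
      ring
    · intro b _ hb; simp [CC, hb]
    · simp
  simp only [h2]
  rw [Finset.sum_comm]
  simp only [← Finset.mul_sum]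

lemma two_ne : ((2 : ℂ) ^ m) ≠ 0 := pow_ne_zero _ two_ne_zero

lemma K1_tk : K1 (tk m) = (CC m)ᴴ * DD (fun g h => mu (g + h)) * CC m := by
  ext ⟨⟨p, q⟩, i⟩ ⟨⟨r, s⟩, j⟩
  rw [CC_form]
  have hgg : ∀ g f : V m × V m, (pl g)ᵀ * pl (g + f) = (sg (g.2 ⬝ᵥ f.1) : ℂ) • pl f := by
    intro g f
    rw [pl_tm, ← add_assoc, add_self_G, zero_add]
    congr 2
    rw [Prod.fst_add, dotProduct_add, dotProduct_comm g.1 g.2, ← add_assoc,
      CharTwo.add_self_eq_zero, zero_add]
  have hpf : ∀ g f : V m × V m, (sg (g.2 ⬝ᵥ f.1) : ℂ) * pl (g + f) r s = ∑ k, pl g r k * pl f k s := by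
    intro g f
    rw [← Matrix.mul_apply, pl_mul]; rfl
  have h1 : ∀ g : V m × V m, ∑ h : V m × V m,
      pl g p q * pl h r s * (((mu (g + h) : ℝ) : ℂ) * ((pl g)ᵀ * pl h) i j) =
      ∑ f : V m × V m, ∑ k, (mu f : ℂ) * pl f i j * pl f k s * (pl g p q * pl g r k) := by
    intro g
    rw [← Equiv.sum_comp (Equiv.addLeft g)]
    refine Finset.sum_congr rfl fun f _ => ?_
    simp only [Equiv.coe_addLeft, hgg, Matrix.smul_apply, smul_eq_mul]
    rw [← add_assoc, add_self_G, zero_add]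
    have := hpf g f
    calc pl g p q * pl (g + f) r s * ((mu f : ℂ) * ((sg (g.2 ⬝ᵥ f.1) : ℂ) * pl f i j))
        = (mu f : ℂ) * pl f i j * pl g p q * ((sg (g.2 ⬝ᵥ f.1) : ℂ) * pl (g + f) r s) := by ring
      _ = _ := by
        rw [this, Finset.mul_sum]
        refine Finset.sum_congr rfl fun k _ => ?_
        ring
  simp only [h1]
  rw [Finset.sum_comm]
  have h2 : ∀ f : V m × V m, ∑ g : V m × V m, ∑ k,
      (mu f : ℂ) * pl f i j * pl f k s * (pl g p q * pl g r k) =
      if p = r then (mu f : ℂ) * pl f i j * pl f q s * (2 : ℂ) ^ m else 0 := by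
    intro f
    rw [Finset.sum_comm]
    simp only [← Finset.mul_sum, complete]
    by_cases hpr : p = r
    · subst hpr
      rw [if_pos rfl, Finset.sum_eq_single q]
      · simp
      · intro b _ hb; simp [Ne.symm hb]
      · simp
    · simp [hpr]
  simp only [h2, K1, tk]
  by_cases hpr : p = r
  · simp only [hpr, if_true]
    rw [← Finset.sum_mul]
    have h2m : ((2 : ℂ) ^ m) ≠ 0 := two_ne
    have h3 : ∑ g : V m × V m, (mu g : ℂ) * pl g q s * pl g i j =
        ∑ g : V m × V m, (mu g : ℂ) * pl g i j * pl g q s :=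
      Finset.sum_congr rfl fun g _ => by ring
    rw [h3]
    field_simp
  · simp [hpr]

lemma comm_sign (g h : V m × V m) :
    pl h * (pl g)ᵀ = (sg (cs g h) : ℂ) • ((pl g)ᵀ * pl h) := by
  rw [pl_tm, pl_transpose, Matrix.mul_smul, pl_mul, smul_smul, smul_smul, add_comm h g]
  congr 1
  rw [cs, sg_add, sg_add]
  have := sg_mul_self (g.2 ⬝ᵥ h.1)
  push_cast
  have h' : (sg (g.2 ⬝ᵥ h.1) : ℂ) * sg (g.2 ⬝ᵥ h.1) = 1 := by exact_mod_cast this
  linear_combination (-(sg (g.1 ⬝ᵥ g.2) : ℂ) * sg (h.2 ⬝ᵥ g.1)) * h'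

lemma K2_tk : K2 (tk m) = (CC m)ᴴ * DD (fun g h => mu g * mu h * sg (cs g h)) * CC m := by
  ext ⟨⟨p, q⟩, i⟩ ⟨⟨r, s⟩, j⟩
  rw [CC_form]
  have h1 : ∀ g h : V m × V m, pl g p q * pl h r s *
      (((mu g * mu h * sg (cs g h) : ℝ) : ℂ) * ((pl g)ᵀ * pl h) i j) =
      ∑ k, (mu h * pl h r s * pl h i k) * (mu g * pl g p q * pl g j k) := by
    intro g h
    have e : ((sg (cs g h) : ℝ) : ℂ) * ((pl g)ᵀ * pl h) i j = ∑ k, pl h i k * pl g j k := by
      have := congrFun (congrFun (comm_sign g h) i) j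
      rw [Matrix.smul_apply, smul_eq_mul] at this
      rw [← this, Matrix.mul_apply]
      rfl
    calc pl g p q * pl h r s *
      (((mu g * mu h * sg (cs g h) : ℝ) : ℂ) * ((pl g)ᵀ * pl h) i j)
        = pl g p q * pl h r s * mu g * mu h * (((sg (cs g h) : ℝ) : ℂ) * ((pl g)ᵀ * pl h) i j) := by
          push_cast; ring
      _ = _ := by
        rw [e, Finset.mul_sum]
        exact Finset.sum_congr rfl fun k _ => by ring
  simp only [h1]
  simp only [K2, tk]
  have hst : ∀ k, star (((2 : ℂ) ^ m)⁻¹ * ∑ g : V m × V m, (mu g : ℂ) * pl g p q * pl g j k) =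
      ((2 : ℂ) ^ m)⁻¹ * ∑ g : V m × V m, (mu g : ℂ) * pl g p q * pl g j k := by
    intro k
    rw [star_mul', star_sum]
    congr 1
    · simp
    · refine Finset.sum_congr rfl fun g _ => ?_
      rw [star_mul', star_mul', pl_star, pl_star]
      simp
  simp only [hst]
  calc ∑ k, ((2 : ℂ) ^ m)⁻¹ * (∑ h : V m × V m, (mu h : ℂ) * pl h r s * pl h i k) *
        (((2 : ℂ) ^ m)⁻¹ * ∑ g : V m × V m, (mu g : ℂ) * pl g p q * pl g j k)
      = ((2 : ℂ) ^ m)⁻¹ * ((2 : ℂ) ^ m)⁻¹ * ∑ k, ∑ h : V m × V m, ∑ g : V m × V m,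
          ((mu h : ℂ) * pl h r s * pl h i k) * ((mu g : ℂ) * pl g p q * pl g j k) := by
        rw [Finset.mul_sum]
        refine Finset.sum_congr rfl fun k _ => ?_
        rw [← Finset.sum_mul_sum]
        ring
    _ = _ := by
        congr 1
        rw [Finset.sum_comm]
        rw [Finset.sum_congr rfl fun h _ => Finset.sum_comm]
        rw [Finset.sum_comm]

theorem SF_tk (m : ℕ) : SF (tk m) := by
  have h := Dom_mu (m := m)
  constructor
  · have e : K1 (tk m) - K2 (tk m) = (CC m)ᴴ *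
        DD (fun g h => mu (g + h) - mu g * mu h * sg (cs g h)) * CC m := by
      rw [K1_tk, K2_tk, ← Matrix.sub_mul, ← Matrix.mul_sub]
      congr 2
      ext x y
      simp only [DD, Matrix.sub_apply]
      push_cast; ring
    rw [e]
    exact (DD_psd h.1).conjTranspose_mul_mul_same _
  · have e : K1 (tk m) + K2 (tk m) = (CC m)ᴴ *
        DD (fun g h => mu (g + h) + mu g * mu h * sg (cs g h)) * CC m := by
      rw [K1_tk, K2_tk, ← Matrix.add_mul, ← Matrix.mul_add]
      congr 2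
      ext x y
      simp only [DD, Matrix.add_apply]
      push_cast; ring
    rw [e]
    exact (DD_psd h.2).conjTranspose_mul_mul_same _

end Vale.Agent.P372.H897
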