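import Mathlib.Analysis.Matrix.Order

open Matrix Kronecker
open scoped ComplexOrder

namespace Vale.Agent.P372.H897

variable {a b κ : Type} [Fintype a] [DecidableEq a] [Fintype b] [DecidableEq b]
  [Fintype κ] [DecidableEq κ]

/-- Kernel of a superoperator: `t p q i j = T(E_pq) i j`. -/
abbrev Ker (a : Type) := a → a → a → a → ℂ

/-- The superoperator with kernel `t`. -/
def ap (t : Ker a) (Y : Matrix a a ℂ) : Matrix a a ℂ :=
  fun i j => ∑ p, ∑ q, Y p q * t p q i j

/-- `K1 ((p,q),i) ((r,s),j) = (T (E_pqᴴ E_rs)) i j`. -/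
def K1 (t : Ker a) : Matrix ((a × a) × a) ((a × a) × a) ℂ :=
  fun u v => if u.1.1 = v.1.1 then t u.1.2 v.1.2 u.2 v.2 else 0

/-- `K2 ((p,q),i) ((r,s),j) = (T (E_rs) (T E_pq)ᴴ) i j`. -/
def K2 (t : Ker a) : Matrix ((a × a) × a) ((a × a) × a) ℂ :=
  fun u v => ∑ k, t v.1.1 v.1.2 u.2 k * star (t u.1.1 u.1.2 v.2 k)

/-- Strong flip. -/
def SF (t : Ker a) : Prop := (K1 t - K2 t).PosSemidef ∧ (K1 t + K2 t).PosSemidef

/-- Tensor product of two kernels. -/
def kt (t : Ker a) (t' : Ker b) : Ker (a × b) :=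
  fun p q i j => t p.1 q.1 i.1 j.1 * t' p.2 q.2 i.2 j.2

/-- Rearrangement of the indices. -/
def sh : ((a × b) × (a × b)) × (a × b) → ((a × a) × a) × ((b × b) × b) :=
  fun u => (((u.1.1.1, u.1.2.1), u.2.1), ((u.1.1.2, u.1.2.2), u.2.2))

omit [Fintype a] [Fintype b] in
lemma K1_kt (t : Ker a) (t' : Ker b) : K1 (kt t t') = (K1 t ⊗ₖ K1 t').submatrix sh sh := by
  ext u v
  simp only [K1, kt, Matrix.submatrix_apply, Matrix.kroneckerMap_apply, sh, Prod.ext_iff]
  split_ifs with h1 h2 h3 h3 h2 <;> simp_all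

omit [DecidableEq a] [DecidableEq b] in
lemma K2_kt (t : Ker a) (t' : Ker b) : K2 (kt t t') = (K2 t ⊗ₖ K2 t').submatrix sh sh := by
  ext u v
  simp only [K2, kt, Matrix.submatrix_apply, Matrix.kroneckerMap_apply, sh, Fintype.sum_prod_type,
    Finset.sum_mul_sum, star_mul']
  refine Finset.sum_congr rfl fun k _ => Finset.sum_congr rfl fun l _ => ?_
  ring

/-- The tensor trick. -/
lemma trick {m n : Type} [Fintype m] [Fintype n] [DecidableEq m] [DecidableEq n]
    {A B : Matrix m m ℂ} {C D : Matrix n n ℂ}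
    (h1 : (A - B).PosSemidef) (h2 : (A + B).PosSemidef) (h3 : (C - D).PosSemidef)
    (h4 : (C + D).PosSemidef) :
    (A ⊗ₖ C - B ⊗ₖ D).PosSemidef ∧ (A ⊗ₖ C + B ⊗ₖ D).PosSemidef := by
  constructor
  · have e : A ⊗ₖ C - B ⊗ₖ D = (1/2 : ℝ) • ((A - B) ⊗ₖ (C + D) + (A + B) ⊗ₖ (C - D)) := by
      ext u v
      simp only [Matrix.sub_apply, Matrix.add_apply, Matrix.smul_apply,
        Matrix.kroneckerMap_apply, Complex.real_smul]
      push_cast
      ring
    rw [e]
    exact ((h1.kronecker h4).add (h2.kronecker h3)).smul (by norm_num)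
  · have e : A ⊗ₖ C + B ⊗ₖ D = (1/2 : ℝ) • ((A - B) ⊗ₖ (C - D) + (A + B) ⊗ₖ (C + D)) := by
      ext u v
      simp only [Matrix.sub_apply, Matrix.add_apply, Matrix.smul_apply,
        Matrix.kroneckerMap_apply, Complex.real_smul]
      push_cast
      ring
    rw [e]
    exact ((h1.kronecker h3).add (h2.kronecker h4)).smul (by norm_num)

theorem SF.kt {t : Ker a} {t' : Ker b} (h : SF t) (h' : SF t') : SF (kt t t') := by
  obtain ⟨p, q⟩ := trick h.1 h.2 h'.1 h'.2
  refine ⟨?_, ?_⟩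
  · rw [K1_kt, K2_kt]
    exact p.submatrix sh
  · rw [K1_kt, K2_kt]
    exact q.submatrix sh

/-- Product kernel over the sites `ι`. -/
def pk {ι : Type} [Fintype ι] (t : Ker a) : Ker (ι → a) :=
  fun p q i j => ∏ s, t (p s) (q s) (i s) (j s)

/-- Change of the index type. -/
def rk (e : b → a) (t : Ker a) : Ker b := fun p q i j => t (e p) (e q) (e i) (e j)

theorem SF.rk {t : Ker a} (h : SF t) (e : b ≃ a) : SF (rk e t) := by
  have h1 : K1 (H897.rk e t) =
      (K1 t).submatrix (fun u => ((e u.1.1, e u.1.2), e u.2)) (fun u => ((e u.1.1, e u.1.2), e u.2)) := by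
    ext u v
    simp [K1, H897.rk]
  have h2 : K2 (H897.rk e t) =
      (K2 t).submatrix (fun u => ((e u.1.1, e u.1.2), e u.2)) (fun u => ((e u.1.1, e u.1.2), e u.2)) := by
    ext u v
    simp only [K2, H897.rk, Matrix.submatrix_apply]
    exact Equiv.sum_comp e (fun k => t (e v.1.1) (e v.1.2) (e u.2) k * star (t (e u.1.1) (e u.1.2) (e v.2) k))
  refine ⟨?_, ?_⟩
  · rw [h1, h2]; exact h.1.submatrix _
  · rw [h1, h2]; exact h.2.submatrix _

theorem SF.pkFin {t : Ker a} (h : SF t) : ∀ n : ℕ, SF (pk (ι := Fin n) t)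
  | 0 => by
    have h1 : K1 (pk (ι := Fin 0) t) = 1 := by
      ext u v
      have : u = v := Subsingleton.elim _ _
      subst this
      simp [K1, pk]
    have h2 : K2 (pk (ι := Fin 0) t) = 1 := by
      ext u v
      have : u = v := Subsingleton.elim _ _
      subst this
      simp [K2, pk]
    refine ⟨?_, ?_⟩
    · rw [h1, h2, sub_self]; exact Matrix.PosSemidef.zero
    · rw [h1, h2]; exact Matrix.PosSemidef.one.add Matrix.PosSemidef.one
  | n + 1 => by
    have := SF.rk (h.kt (SF.pkFin h n)) (Fin.consEquiv (fun _ : Fin (n+1) => a)).symm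
    convert this using 1
    funext p q i j
    simp [pk, H897.rk, H897.kt, Fin.consEquiv, Fin.prod_univ_succ, Fin.tail]

theorem SF.pk {ι : Type} [Fintype ι] [DecidableEq ι] {t : Ker a} (h : SF t) :
    SF (pk (ι := ι) t) := by
  classical
  have := SF.rk (h.pkFin (Fintype.card ι))
    (Equiv.arrowCongr (Fintype.equivFin ι) (Equiv.refl a))
  convert this using 1
  funext p q i j
  simp only [H897.pk, H897.rk]
  exact (Equiv.prod_comp (Fintype.equivFin ι).symm
    (fun s => t (p s) (q s) (i s) (j s))).symm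

/-- The matrix `V ((p,q),i) j = Y p q δ_ij`. -/
def VV (Y : Matrix a a ℂ) : Matrix ((a × a) × a) a ℂ := fun u j => if u.2 = j then Y u.1.1 u.1.2 else 0

lemma VV_form (Y Z : Matrix a a ℂ) (K : Matrix ((a × a) × a) ((a × a) × a) ℂ) (i j : a) :
    ((VV Y)ᴴ * K * VV Z) i j =
      ∑ p, ∑ q, ∑ r, ∑ s, star (Y p q) * K ((p, q), i) ((r, s), j) * Z r s := by
  have h1 : ∀ v : (a × a) × a, ((VV Y)ᴴ * K) i v = ∑ p, ∑ q, star (Y p q) * K ((p, q), i) v := by
    intro v
    simp only [Matrix.mul_apply, Matrix.conjTranspose_apply, VV, Fintype.sum_prod_type]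
    refine Finset.sum_congr rfl fun p _ => Finset.sum_congr rfl fun q _ => ?_
    rw [Finset.sum_eq_single i]
    · simp
    · intro b _ hb; simp [hb]
    · simp
  rw [Matrix.mul_apply]
  simp only [h1, Fintype.sum_prod_type, VV]
  have h2 : ∀ r s : a, ∑ k, (∑ p, ∑ q, star (Y p q) * K ((p, q), i) ((r, s), k)) *
      (if k = j then Z r s else 0) =
      ∑ p, ∑ q, star (Y p q) * K ((p, q), i) ((r, s), j) * Z r s := by
    intro r s
    rw [Finset.sum_eq_single j]
    · simp [Finset.sum_mul]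
    · intro b _ hb; simp [hb]
    · simp
  simp only [h2]
  calc ∑ r, ∑ s, ∑ p, ∑ q, star (Y p q) * K ((p, q), i) ((r, s), j) * Z r s
      = ∑ r, ∑ p, ∑ s, ∑ q, star (Y p q) * K ((p, q), i) ((r, s), j) * Z r s :=
        Finset.sum_congr rfl fun r _ => Finset.sum_comm
    _ = ∑ r, ∑ p, ∑ q, ∑ s, star (Y p q) * K ((p, q), i) ((r, s), j) * Z r s :=
        Finset.sum_congr rfl fun r _ => Finset.sum_congr rfl fun p _ => Finset.sum_comm
    _ = ∑ p, ∑ r, ∑ q, ∑ s, star (Y p q) * K ((p, q), i) ((r, s), j) * Z r s :=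
        Finset.sum_comm
    _ = ∑ p, ∑ q, ∑ r, ∑ s, star (Y p q) * K ((p, q), i) ((r, s), j) * Z r s :=
        Finset.sum_congr rfl fun p _ => Finset.sum_comm

lemma ap_conj_mul (t : Ker a) (Y Z : Matrix a a ℂ) : ap t (Yᴴ * Z) = (VV Y)ᴴ * K1 t * VV Z := by
  ext i j
  rw [VV_form]
  simp only [ap, Matrix.mul_apply, Matrix.conjTranspose_apply, K1, Finset.sum_mul]
  -- ∑ q, ∑ s, ∑ p, star (Y p q) * Z p s * t q s i j
  calc ∑ q, ∑ s, ∑ p, star (Y p q) * Z p s * t q s i j
      = ∑ q, ∑ p, ∑ s, star (Y p q) * Z p s * t q s i j :=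
        Finset.sum_congr rfl fun q _ => Finset.sum_comm
    _ = ∑ p, ∑ q, ∑ s, star (Y p q) * Z p s * t q s i j := Finset.sum_comm
    _ = _ := by
        refine Finset.sum_congr rfl fun p _ => Finset.sum_congr rfl fun q _ => ?_
        refine (Eq.trans (Finset.sum_eq_single p ?_ ?_) ?_).symm
        · intro r _ hr
          refine Finset.sum_eq_zero fun s _ => ?_
          rw [if_neg (Ne.symm hr)]; simp
        · simp
        · refine Finset.sum_congr rfl fun s _ => ?_
          simp only [if_true]; ring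

omit [DecidableEq a] in
lemma ap_mul_conj [DecidableEq a] (t : Ker a) (Y Z : Matrix a a ℂ) :
    ap t Z * (ap t Y)ᴴ = (VV Y)ᴴ * K2 t * VV Z := by
  ext i j
  rw [VV_form]
  simp only [ap, Matrix.mul_apply, Matrix.conjTranspose_apply, K2, Finset.sum_mul, Finset.mul_sum,
    star_sum, star_mul']
  -- ∑ k, ∑ p, ∑ q, ∑ r, ∑ s
  calc ∑ k, ∑ p, ∑ q, ∑ r, ∑ s, Z r s * t r s i k * (star (Y p q) * star (t p q j k))
      = ∑ p, ∑ k, ∑ q, ∑ r, ∑ s, Z r s * t r s i k * (star (Y p q) * star (t p q j k)) :=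
        Finset.sum_comm
    _ = ∑ p, ∑ q, ∑ k, ∑ r, ∑ s, Z r s * t r s i k * (star (Y p q) * star (t p q j k)) :=
        Finset.sum_congr rfl fun p _ => Finset.sum_comm
    _ = ∑ p, ∑ q, ∑ r, ∑ k, ∑ s, Z r s * t r s i k * (star (Y p q) * star (t p q j k)) :=
        Finset.sum_congr rfl fun p _ => Finset.sum_congr rfl fun q _ => Finset.sum_comm
    _ = ∑ p, ∑ q, ∑ r, ∑ s, ∑ k, Z r s * t r s i k * (star (Y p q) * star (t p q j k)) :=
        Finset.sum_congr rfl fun p _ => Finset.sum_congr rfl fun q _ =>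
          Finset.sum_congr rfl fun r _ => Finset.sum_comm
    _ = _ := by
        refine Finset.sum_congr rfl fun p _ => Finset.sum_congr rfl fun q _ =>
          Finset.sum_congr rfl fun r _ => Finset.sum_congr rfl fun s _ =>
          Finset.sum_congr rfl fun k _ => ?_
        ring

/-- The co-Schwarz inequality. -/
theorem SF.coSchwarz {t : Ker a} (h : SF t) (Y : Matrix a a ℂ) :
    (ap t (Yᴴ * Y) - ap t Y * (ap t Y)ᴴ).PosSemidef := by
  rw [ap_conj_mul, ap_mul_conj, ← Matrix.sub_mul, ← Matrix.mul_sub]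
  exact h.1.conjTranspose_mul_mul_same _

theorem SF.K1_psd {t : Ker a} (h : SF t) : (K1 t).PosSemidef := by
  have e : K1 t = (1/2 : ℝ) • ((K1 t - K2 t) + (K1 t + K2 t)) := by
    ext u v
    simp only [Matrix.sub_apply, Matrix.add_apply, Matrix.smul_apply, Complex.real_smul]
    push_cast
    ring
  rw [e]
  exact (h.1.add h.2).smul (by norm_num)

/-- The Choi matrix. -/
def Choi (t : Ker a) : Matrix (a × a) (a × a) ℂ := fun u v => t u.1 v.1 u.2 v.2

theorem SF.choi {t : Ker a} (h : SF t) : (Choi t).PosSemidef := by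
  rcases isEmpty_or_nonempty a with he | ⟨⟨p0⟩⟩
  · have : Choi t = 0 := by ext u; exact (he.false u.1).elim
    rw [this]; exact Matrix.PosSemidef.zero
  · have := h.K1_psd.submatrix (fun u : a × a => ((p0, u.1), u.2))
    convert this using 1
    ext u v
    simp [Choi, K1]

/-- `T ⊗ id` on `Matrix (a × κ)`. -/
def apr (t : Ker a) (M : Matrix (a × κ) (a × κ) ℂ) : Matrix (a × κ) (a × κ) ℂ :=
  fun u v => ∑ p, ∑ q, M (p, u.2) (q, v.2) * t p q u.1 v.1

lemma psd_collapse {X : Type} [Fintype X] [DecidableEq X] {N : Matrix (X × a) (X × a) ℂ}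
    (h : N.PosSemidef) :
    (Matrix.of fun u v : X => ∑ p, ∑ q, N (u, p) (v, q)).PosSemidef := by
  let J : Matrix (X × a) X ℂ := Matrix.of fun w v => if w.1 = v then 1 else 0
  have e : (Matrix.of fun u v : X => ∑ p, ∑ q, N (u, p) (v, q)) = Jᴴ * N * J := by
    ext u v
    have h1 : ∀ w, (Jᴴ * N) u w = ∑ p, N (u, p) w := by
      intro w
      rw [Matrix.mul_apply, Fintype.sum_prod_type, Finset.sum_eq_single u]
      · simp [J, Matrix.conjTranspose_apply]
      · intro b _ hb; simp [J, Matrix.conjTranspose_apply, hb]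
      · simp
    rw [Matrix.mul_apply, Fintype.sum_prod_type, Finset.sum_eq_single v]
    · simp only [h1, J, Matrix.of_apply, if_true, mul_one]
      exact Finset.sum_comm
    · intro b _ hb; simp [J, hb]
    · simp
  rw [e]
  exact h.conjTranspose_mul_mul_same J

/-- Complete positivity. -/
theorem apr_psd {t : Ker a} (h : (Choi t).PosSemidef) {M : Matrix (a × κ) (a × κ) ℂ}
    (hM : M.PosSemidef) : (apr t M).PosSemidef := by
  have h1 := psd_collapse ((hM.kronecker h).submatrix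
    (fun w : (a × κ) × a => ((w.2, w.1.2), (w.2, w.1.1))))
  exact h1

/-- Complete positivity for block matrices. -/
theorem ap_blocks {t : Ker a} (h : (Choi t).PosSemidef) {X Z Z' Y : Matrix a a ℂ}
    (hM : (Matrix.fromBlocks X Z Z' Y).PosSemidef) :
    (Matrix.fromBlocks (ap t X) (ap t Z) (ap t Z') (ap t Y)).PosSemidef := by
  have h1 := (apr_psd (κ := Bool) h (M := (Matrix.fromBlocks X Z Z' Y).submatrix
    (fun w : a × Bool => cond w.2 (Sum.inr w.1) (Sum.inl w.1))
    (fun w : a × Bool => cond w.2 (Sum.inr w.1) (Sum.inl w.1))) (hM.submatrix _)).submatrix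
      (Sum.elim (fun i => (i, false)) (fun i => (i, true)))
  convert h1 using 1
  ext u v
  rcases u with u | u <;> rcases v with v | v <;> simp [apr, ap, Matrix.submatrix_apply]

theorem ap_psd {t : Ker a} (h : (Choi t).PosSemidef) {X : Matrix a a ℂ} (hX : X.PosSemidef) :
    (ap t X).PosSemidef := by
  have h1 := (apr_psd (κ := Unit) h (M := X.submatrix Prod.fst Prod.fst) (hX.submatrix _)).submatrix
      (fun i => (i, ()))
  exact h1

end Vale.Agent.P372.H897
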