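import Vale.Agent.P372.H897.Cliff

open Matrix Kronecker
open scoped ComplexOrder

namespace Vale.Agent.P372.H897

section general

variable {a b : Type} [Fintype a] [DecidableEq a] [Fintype b] [DecidableEq b]

/-- Self-dual kernel. -/
def SD (t : Ker a) : Prop := ∀ p q i j, t p q i j = t j i q p

/-- Unital kernel. -/
def UN (t : Ker a) : Prop := ∀ i j, ∑ p, t p p i j = if i = j then 1 else 0

/-- Hermitian kernel. -/
def HM (t : Ker a) : Prop := ∀ p q i j, star (t p q i j) = t q p j i

omit [DecidableEq a] in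
lemma SD.trace {t : Ker a} (h : SD t) (X Y : Matrix a a ℂ) :
    (ap t X * Y).trace = (X * ap t Y).trace := by
  simp only [Matrix.trace, Matrix.diag_apply, Matrix.mul_apply, ap, Finset.sum_mul, Finset.mul_sum]
  -- ∑ i ∑ j ∑ p ∑ q X p q * t p q i j * Y j i = ∑ p ∑ q ∑ j ∑ i X p q * (Y j i * t j i q p)
  have h1 : ∀ i j p q : a, X p q * t p q i j * Y j i = X p q * (Y j i * t j i q p) := by
    intro i j p q; rw [h p q i j]; ring
  simp only [h1]
  calc ∑ i, ∑ j, ∑ p, ∑ q, X p q * (Y j i * t j i q p)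
      = ∑ i, ∑ p, ∑ j, ∑ q, X p q * (Y j i * t j i q p) :=
        Finset.sum_congr rfl fun _ _ => Finset.sum_comm
    _ = ∑ p, ∑ i, ∑ j, ∑ q, X p q * (Y j i * t j i q p) := Finset.sum_comm
    _ = ∑ p, ∑ i, ∑ q, ∑ j, X p q * (Y j i * t j i q p) :=
        Finset.sum_congr rfl fun _ _ => Finset.sum_congr rfl fun _ _ => Finset.sum_comm
    _ = ∑ p, ∑ q, ∑ i, ∑ j, X p q * (Y j i * t j i q p) :=
        Finset.sum_congr rfl fun _ _ => Finset.sum_comm
    _ = ∑ p, ∑ q, ∑ j, ∑ i, X p q * (Y j i * t j i q p) :=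
        Finset.sum_congr rfl fun _ _ => Finset.sum_congr rfl fun _ _ => Finset.sum_comm

lemma UN.one {t : Ker a} (h : UN t) : ap t 1 = 1 := by
  ext i j
  simp only [ap, Matrix.one_apply, ite_mul, one_mul, zero_mul, Finset.sum_ite_eq, Finset.mem_univ,
    if_true]
  exact h i j

lemma trace_preserving {t : Ker a} (h : SD t) (h' : UN t) (X : Matrix a a ℂ) :
    (ap t X).trace = X.trace := by
  have := h.trace X 1
  rwa [Matrix.mul_one, h'.one, Matrix.mul_one] at this

omit [DecidableEq a] in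
lemma HM.conj {t : Ker a} (h : HM t) (X : Matrix a a ℂ) : ap t Xᴴ = (ap t X)ᴴ := by
  ext i j
  simp only [ap, Matrix.conjTranspose_apply, star_sum, star_mul', h _ _ _ _]
  exact Finset.sum_comm

lemma SD.kt {t : Ker a} {t' : Ker b} (h : SD t) (h' : SD t') : SD (kt t t') := by
  intro p q i j
  simp only [H897.kt]
  rw [h, h']

lemma UN.kt {t : Ker a} {t' : Ker b} (h : UN t) (h' : UN t') : UN (kt t t') := by
  intro i j
  simp only [H897.kt, Fintype.sum_prod_type, ← Finset.mul_sum]
  rw [← Finset.sum_mul, h, h']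
  by_cases h1 : i.1 = j.1 <;> by_cases h2 : i.2 = j.2 <;> simp [h1, h2, Prod.ext_iff]

omit [Fintype a] [DecidableEq a] [Fintype b] [DecidableEq b] in
lemma HM.kt {t : Ker a} {t' : Ker b} (h : HM t) (h' : HM t') : HM (kt t t') := by
  intro p q i j
  simp only [H897.kt, star_mul']
  rw [h, h']

lemma SD.pk {ι : Type} [Fintype ι] {t : Ker a} (h : SD t) : SD (pk (ι := ι) t) := by
  intro p q i j
  exact Finset.prod_congr rfl fun s _ => h _ _ _ _

lemma UN.pk {ι : Type} [Fintype ι] [DecidableEq ι] {t : Ker a} (h : UN t) :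
    UN (pk (ι := ι) t) := by
  intro i j
  simp only [H897.pk]
  rw [← Fintype.prod_sum (fun s p => t p p (i s) (j s))]
  simp only [h _ _]
  by_cases hij : i = j
  · simp [hij]
  · rw [if_neg hij]
    obtain ⟨s, hs⟩ : ∃ s, i s ≠ j s := by
      by_contra hc; push Not at hc; exact hij (funext hc)
    exact Finset.prod_eq_zero (Finset.mem_univ s) (by simp [hs])

omit [Fintype a] [DecidableEq a] in
lemma HM.pk {ι : Type} [Fintype ι] {t : Ker a} (h : HM t) : HM (pk (ι := ι) t) := by
  intro p q i j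
  simp only [H897.pk, star_prod, h _ _ _ _]

omit [DecidableEq a] [DecidableEq b] in
lemma ap_kron (t : Ker a) (t' : Ker b) (X : Matrix a a ℂ) (Y : Matrix b b ℂ) :
    ap (kt t t') (X ⊗ₖ Y) = ap t X ⊗ₖ ap t' Y := by
  ext i j
  simp only [ap, kt, Matrix.kroneckerMap_apply, Fintype.sum_prod_type, Finset.sum_mul_sum]
  -- LHS ∑ p1 ∑ p2 ∑ q1 ∑ q2 ; RHS ∑ p1 ∑ p2 (∑ q1 ..)(∑ q2 ..)
  refine Finset.sum_congr rfl fun p1 _ => Finset.sum_congr rfl fun p2 _ => ?_
  refine Finset.sum_congr rfl fun q1 _ => Finset.sum_congr rfl fun q2 _ => ?_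
  ring

omit [DecidableEq a] in
lemma ap_add (t : Ker a) (X Y : Matrix a a ℂ) : ap t (X + Y) = ap t X + ap t Y := by
  ext i j
  simp only [ap, Matrix.add_apply, add_mul, Finset.sum_add_distrib]

omit [DecidableEq a] in
lemma ap_smul (t : Ker a) (c : ℂ) (X : Matrix a a ℂ) : ap t (c • X) = c • ap t X := by
  ext i j
  simp only [ap, Matrix.smul_apply, smul_eq_mul, mul_assoc, Finset.mul_sum]

omit [DecidableEq a] in
lemma ap_sum {κ : Type} (t : Ker a) (s : Finset κ) (X : κ → Matrix a a ℂ) :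
    ap t (∑ k ∈ s, X k) = ∑ k ∈ s, ap t (X k) := by
  classical
  induction s using Finset.induction_on with
  | empty => ext i j; simp [ap]
  | insert k s hk ih => rw [Finset.sum_insert hk, Finset.sum_insert hk, ap_add, ih]

end general

/-! ### The kernel `tk m` -/

variable {m : ℕ}

lemma pl_swap (g : V m × V m) (u v : V m) : pl g v u = (sg (g.1 ⬝ᵥ g.2) : ℂ) * pl g u v := by
  have := congrFun (congrFun (pl_transpose g) u) v
  simpa using this

lemma sgc (z : ZMod 2) : (sg z : ℂ) * sg z = 1 := by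
  exact_mod_cast sg_mul_self z

lemma SD_tk : SD (tk m) := by
  intro p q i j
  simp only [tk]
  congr 1
  refine Finset.sum_congr rfl fun g _ => ?_
  rw [pl_swap g i j, pl_swap g p q]
  have := sgc (g.1 ⬝ᵥ g.2)
  linear_combination (-(mu g : ℂ) * pl g p q * pl g i j) * this

lemma HM_tk : HM (tk m) := by
  intro p q i j
  simp only [tk, star_mul', star_sum, pl_star]
  congr 1
  · simp
  · refine Finset.sum_congr rfl fun g _ => ?_
    rw [pl_swap g i j, pl_swap g p q]
    have := sgc (g.1 ⬝ᵥ g.2)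
    simp only [Complex.star_def, Complex.conj_ofReal]
    linear_combination (-(mu g : ℂ) * pl g p q * pl g i j) * this

lemma trace_pl (g : V m × V m) : (pl g).trace = if g = 0 then (2 : ℂ) ^ m else 0 := by
  have h1 : (pl g).trace = if g.1 = 0 then ∑ u : V m, (sg (u ⬝ᵥ g.2) : ℂ) else 0 := by
    simp only [Matrix.trace, Matrix.diag_apply, pl]
    have e : ∀ u : V m, (u = u + g.1) ↔ g.1 = 0 := fun u => by
      constructor
      · intro h; simpa using h.symm
      · intro h; rw [h, add_zero]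
    simp only [e]
    split_ifs
    · exact Finset.sum_congr rfl fun u _ => by rw [dotProduct_comm]
    · simp
  rw [h1, sum_sg]
  by_cases h1 : g.1 = 0 <;> by_cases h2 : g.2 = 0 <;> simp [h1, h2, Prod.ext_iff]

lemma orth (g h : V m × V m) :
    ∑ p, ∑ q, pl g p q * pl h p q = if g = h then (2 : ℂ) ^ m else 0 := by
  have h1 : ∑ p, ∑ q, pl g p q * pl h p q = ((pl g)ᵀ * pl h).trace := by
    simp only [Matrix.trace, Matrix.diag_apply, Matrix.mul_apply, Matrix.transpose_apply]
    exact Finset.sum_comm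
  rw [h1, pl_tm, Matrix.trace_smul, trace_pl]
  have e : g + h = 0 ↔ g = h := by
    constructor
    · intro h2
      have := congrArg (· + h) h2
      simpa [add_assoc, add_self_G] using this
    · rintro rfl; exact add_self_G g
  simp only [e]
  split_ifs with h2
  · subst h2
    rw [dotProduct_comm g.1 g.2, CharTwo.add_self_eq_zero, sg_zero]
    simp
  · simp

lemma ap_tk_pl (g : V m × V m) : ap (tk m) (pl g) = (mu g : ℂ) • pl g := by
  ext i j
  simp only [ap, tk, Matrix.smul_apply, smul_eq_mul]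
  have h1 : ∀ p q : V m, pl g p q * (((2 : ℂ) ^ m)⁻¹ * ∑ h : V m × V m, (mu h : ℂ) * pl h p q * pl h i j) =
      ∑ h : V m × V m, ((2 : ℂ) ^ m)⁻¹ * ((mu h : ℂ) * pl h i j) * (pl g p q * pl h p q) := by
    intro p q
    rw [Finset.mul_sum, Finset.mul_sum]
    exact Finset.sum_congr rfl fun h _ => by ring
  simp only [h1]
  have h2 : ∑ p : V m, ∑ q : V m, ∑ h : V m × V m,
      ((2 : ℂ) ^ m)⁻¹ * ((mu h : ℂ) * pl h i j) * (pl g p q * pl h p q) =
      ∑ h : V m × V m, ((2 : ℂ) ^ m)⁻¹ * ((mu h : ℂ) * pl h i j) *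
        ∑ p : V m, ∑ q : V m, (pl g p q * pl h p q) := by
    rw [Finset.sum_congr rfl fun p _ => Finset.sum_comm, Finset.sum_comm]
    refine Finset.sum_congr rfl fun h _ => ?_
    simp only [Finset.mul_sum]
  rw [h2, Finset.sum_eq_single g]
  · rw [orth, if_pos rfl]
    have : ((2 : ℂ) ^ m) ≠ 0 := two_ne
    field_simp
  · intro b _ hb
    rw [orth, if_neg (Ne.symm hb), mul_zero]
  · simp

lemma pw_zero : pw 0 = 1 := by simp [pw]

lemma mu_zero : mu (0 : V m × V m) = 1 := by
  simp [mu, wc, pw_zero]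

lemma ap_tk_one : ap (tk m) 1 = 1 := by
  have := ap_tk_pl (m := m) 0
  rwa [pl_zero, mu_zero, Complex.ofReal_one, one_smul] at this

lemma UN_tk : UN (tk m) := by
  intro i j
  have := congrFun (congrFun (ap_tk_one (m := m)) i) j
  simpa [ap, Matrix.one_apply] using this

/-- The generators `(e_a, 1_{k < a})`. -/
def gen (a : Fin m) : V m × V m := (Pi.single a 1, fun k => if k < a then 1 else 0)

lemma mu_gen (a : Fin m) : mu (gen a) = 1 / 3 := by
  have h3 : (√3 : ℝ)⁻¹ * (√3)⁻¹ = 1 / 3 := by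
    rw [← mul_inv, Real.mul_self_sqrt (by norm_num)]; norm_num
  have hw : ∀ j, wc (gen a) j = 0 := by
    intro j
    simp only [wc, gen]
    by_cases hja : j < a
    · rw [if_pos hja, Finset.sum_eq_single a]
      · simp; decide
      · intro b _ hb; simp [Pi.single_apply, hb]
      · intro h; exact (h (Finset.mem_Ioi.mpr hja)).elim
    · rw [if_neg hja, zero_add]
      refine Finset.sum_eq_zero fun k hk => ?_
      have : k ≠ a := by
        rintro rfl
        exact hja (Finset.mem_Ioi.mp hk)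
      simp [Pi.single_apply, this]
  simp only [mu, hw, add_zero, pw_zero, mul_one]
  have h1 : ∑ j, (gen a).1 j = 1 := by
    simp [gen]
  rw [h1, Finset.prod_eq_single a]
  · simp [gen, pw, h3]
  · intro b _ hb
    simp [gen, Pi.single_apply, hb, pw]
  · simp

end Vale.Agent.P372.H897
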