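import Vale.Agent.P372.H897.CliffT
import Vale.Agent.P372.H399.FmDefs
import Vale.Agent.P372.H405.Corner

open Matrix Kronecker
open scoped ComplexOrder MatrixOrder

namespace Vale.Agent.P372.H897

variable {a : Type} [Fintype a] [DecidableEq a]

/-- The linear map with kernel `t`. -/
def apl (t : Ker a) : Matrix a a ℂ →ₗ[ℂ] Matrix a a ℂ where
  toFun := ap t
  map_add' := ap_add t
  map_smul' := fun c X => by simpa using ap_smul t c X

omit [DecidableEq a] in
@[simp] lemma apl_apply (t : Ker a) (X : Matrix a a ℂ) : apl t X = ap t X := rfl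

theorem isFlip_of {t : Ker a} (h : SF t) (hs : SD t) (hu : UN t) (hh : HM t) :
    H405.IsFlip (apl t) where
  trace X := trace_preserving hs hu X
  one := hu.one
  herm X := hh.conj X
  dual X Y := hs.trace X Y
  block X C Y hb := by
    have := ap_blocks h.choi hb
    rwa [hh.conj] at this
  co Y := h.coSchwarz Y

/-- The kernel of `(T ⊗ T)^{⊗ n}` on `(Fin n → V m) × (Fin n → V m)`. -/
noncomputable def kn (m n : ℕ) : Ker ((Fin n → V m) × (Fin n → V m)) :=
  kt (pk (ι := Fin n) (tk m)) (pk (ι := Fin n) (tk m))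

theorem isFlip_kn (m n : ℕ) : H405.IsFlip (apl (kn m n)) :=
  isFlip_of ((SF_tk m).pk.kt (SF_tk m).pk) (SD_tk.pk.kt SD_tk.pk) (UN_tk.pk.kt UN_tk.pk)
    (HM_tk.pk.kt HM_tk.pk)

lemma fm_pl {m : ℕ} (g : V m × V m) : Fm.pl g = pl g := rfl

lemma fm_cw {m : ℕ} (g : V m × V m) (j : Fin m) : Fm.cw g j = wc g j := by
  simp only [Fm.cw, wc]
  congr 1
  rw [← Finset.sum_filter]
  congr 1
  ext k
  simp

lemma fm_mu {m : ℕ} (g : V m × V m) : Fm.mu g = mu g := by
  unfold Fm.mu mu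
  simp only [fm_cw]
  rfl

lemma fm_tk (m : ℕ) : Fm.tk m = tk m := by
  funext p q i j
  unfold Fm.tk tk
  simp only [fm_mu, fm_pl]

lemma fm_pk (m n : ℕ) : Fm.pk n (fun _ => Fm.tk m) (fun _ => Fm.tk m) = kn m n := by
  funext p q i j
  simp only [Fm.pk, kn, kt, pk, fm_tk, Finset.prod_mul_distrib]

omit [DecidableEq a] in
lemma fm_ap (t : Ker a) (X : Matrix a a ℂ) : Fm.ap t X = ap t X := by
  ext i j
  simp only [Fm.ap, ap, mul_comm]

/-- (SN): the socket. -/
theorem SN (m n : ℕ) : ∃ S : Matrix ((Fin n → V m) × (Fin n → V m)) ((Fin n → V m) × (Fin n → V m)) ℂ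
    →ₗ[ℂ] Matrix ((Fin n → V m) × (Fin n → V m)) ((Fin n → V m) × (Fin n → V m)) ℂ,
    H405.IsFlip S ∧ ∀ X, S X = Fm.ap (Fm.pk n (fun _ => Fm.tk m) (fun _ => Fm.tk m)) X :=
  ⟨apl (kn m n), isFlip_kn m n, fun X => by rw [fm_pk, fm_ap]; rfl⟩

end Vale.Agent.P372.H897
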